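import Vale.Agent.Lib.P162.Defs
import Vale.Agent.Lib.P162.Compare
import Vale.Agent.Lib.P162.Assemble
import Vale.Agent.Lib.P162G.GFinal

namespace Vale.Agent.Results.P162.B_alleven

open Vale.Agent.Lib.P162

/-- Thorp shuffle. For a deck of `2 ^ (d + 1)` cards, `8192 * (d + 1) ^ 2` shuffles suffice; for a deck
of `2 * m` cards with `m ≥ 1` arbitrary, `311040 * D ^ 3` shuffles suffice, where `D` is the least
integer with `2 * m ≤ 2 ^ D`. Here suffice means total variation distance at most `1 / 4` from uniform,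
also for every larger number of shuffles. -/
theorem result :
    (∀ d t : ℕ, 8192 * (d + 1) ^ 2 ≤ t →
      tvDist (convPow (thorpLaw (2 ^ d)) t) (unif _) ≤ 1 / 4) ∧
    (∀ m t : ℕ, 1 ≤ m → 311040 * (Nat.clog 2 (2 * m)) ^ 3 ≤ t →
      tvDist (convPow (thorpLaw m) t) (unif _) ≤ 1 / 4) := by
  refine ⟨fun d t ht => ?_, fun m t hm ht => Vale.Agent.Lib.P162G.tv_all hm ht⟩
  refine tv_thorp_all d t (sig (d + 1)) (sig_lower (d + 1))
    (fun f => compare (d + 1) (piE d) (piE_isOrth d) f) ?_
  nlinarith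

end Vale.Agent.Results.P162.B_alleven
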