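import Vale.Agent.Results.P162.A0_linear
import Vale.Agent.Results.P162.B_alleven

namespace Vale.Agent.Results.P162.A00_master

open Vale.Agent.Lib.P162

/-- Thorp shuffle. (1) There is an absolute constant `C` such that for a deck of `2 ^ (d + 1)` cards,
`t ≥ C * (d + 1)` shuffles bring the deck within total variation distance `1 / 4` of uniform, while
for `d ≥ 3` and `t ≤ d + 1` they do not. (2) For a deck of `2 * m` cards, `m ≥ 1` arbitrary,
`311040 * D ^ 3` shuffles suffice, where `D` is the least integer with `2 * m ≤ 2 ^ D`. -/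
theorem result :
    (∃ C : ℕ, ∀ d t : ℕ,
      (C * (d + 1) ≤ t → tvDist (convPow (thorpLaw (2 ^ d)) t) (unif _) ≤ 1 / 4) ∧
      (3 ≤ d → t ≤ d + 1 → 1 / 4 < tvDist (convPow (thorpLaw (2 ^ d)) t) (unif _))) ∧
    (∀ m t : ℕ, 1 ≤ m → 311040 * (Nat.clog 2 (2 * m)) ^ 3 ≤ t →
      tvDist (convPow (thorpLaw m) t) (unif _) ≤ 1 / 4) :=
  ⟨Vale.Agent.Results.P162.A0_linear.result, Vale.Agent.Results.P162.B_alleven.result.2⟩

end Vale.Agent.Results.P162.A00_master
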