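import Vale.Agent.Lib.P162.Defs
import Vale.Agent.Lib.P162T.LinkThorp
import Vale.Agent.Lib.P162T.LowerBound

namespace Vale.Agent.Results.P162.A0_linear

open Vale.Agent.Lib.P162

/-- The mixing time of the Thorp shuffle on `n = 2 ^ (d + 1)` cards is of order `d + 1 = log₂ n`:
there is an absolute constant `C` such that after `t ≥ C * (d + 1)` shuffles the deck is within total
variation distance `1 / 4` of uniform, while for `d ≥ 3` and `t ≤ d + 1` it is not. -/
theorem result :
    ∃ C : ℕ, ∀ d t : ℕ,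
      (C * (d + 1) ≤ t → tvDist (convPow (thorpLaw (2 ^ d)) t) (unif _) ≤ 1 / 4) ∧
      (3 ≤ d → t ≤ d + 1 → 1 / 4 < tvDist (convPow (thorpLaw (2 ^ d)) t) (unif _)) := by
  obtain ⟨C, hC⟩ := Vale.Agent.Lib.P162T.linear_mixing
  exact ⟨C, fun d t => ⟨hC d t, fun hd ht => Vale.Agent.Lib.P162T.lower_bound d t hd ht⟩⟩

end Vale.Agent.Results.P162.A0_linear
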