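import Vale.Agent.Lib.P162.Defs
import Vale.Agent.Lib.P162.Compare
import Vale.Agent.Lib.P162.Assemble

namespace Vale.Agent.Results.P162.A_main

open Vale.Agent.Lib.P162

/-- For a deck of `n = 2 ^ (d + 1)` cards, after any number `t ≥ 8192 * (d + 1) ^ 2` of Thorp
shuffles the deck is within total variation distance `1 / 4` of uniform. -/
theorem result (d t : ℕ) (ht : 8192 * (d + 1) ^ 2 ≤ t) :
    tvDist (convPow (thorpLaw (2 ^ d)) t) (unif _) ≤ 1 / 4 := by
  refine tv_thorp_all d t (sig (d + 1)) (sig_lower (d + 1))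
    (fun f => compare (d + 1) (piE d) (piE_isOrth d) f) ?_
  nlinarith

end Vale.Agent.Results.P162.A_main
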